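import Vale.Agent.Lib.P038.Sat.Shapes.S6_3t
noncomputable section
namespace Vale.Agent.Lib.P038.Sat.I.M3_3
open Vale.Agent.Lib.P038.Sat
def W : Nat := 495
def M : Nat := 102293456496754433437912178025862473506770063938845774671352855253004181137646079840102190385184504910965208878986252219038039267058918532916516487167
def GT : Nat := 34577661769513284923186076414587957290684583961493617735012021920816705543408943690548748914062646731739010289340134453301565239199874094427957706323722818719991841822018071788219443067258772294188975229653751776512863028758395008775362308339104812913866301367888520774852073673966924247368939648279334431912502233876661114106102089527839326677821324467186904410310760469991804980624899084559882522382324673686746059933937937221723788776318364787949608093527046053347448438070740057669260559935420123630499827183765729039179942003460052572176545811561869845540911552828156805085171104099061069620822160319166084044963358522041444917163759094585081462738491243036447458813829084433090945447633314147791466855587138510309658396543914269728697638293611255885227963052162681246306754374453109364994116953175020828820542180463695030782568988498025753138777046126467658696216893927624862981892814158035316721357641313251900256813781122143345327249866309179188731810249120430040954698930897579665822339458896388220501352258211079145258033702478445845984241396987419229162919884504244951197549911480515492121003406501639503391983413800621755515577120995226445478812044064124570464985230753002485788194423530641027577224208780185920707787675835806941231564010389586753162730866587359875746859402430819157832192765271172081152178102114216795031275560098787935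104846715509825135547395706363678986102494667942259243998644069336638329426617457894347308256335063689999314155771716456752580355643965023460500391024529825655330691271926719015896195600323809660607870514406152216926744694869145547105899459547420163628030715882891031755957647983937764666003550732270777490063670253020551153525033441257603593861295034372442850421305521375157073529046016117587402254349507071990399065414989893794331397792654069237513248859033091806653363676934933693089024750865875358731570475758880780355548010813640095060485014439648886388117161716300926540033451054740647726379227540190142224365687674027013932693357402227134915138659819843854790086486716957163479552273913410106787909679490198263105789806982633587916357703955585320818965196915882132730501253962329783316428353586899131033369932252648033972273340578242244634776057042833467775953028756332196550086094466851972091875802105105601934204244514902611242655320500328672420858317034073385982476473865029552162869611905706759664049954419450624679115348381833815487622145771378666119279643914401407368828365926032231470700115614778786355027596798733608449975027841228753753515777495365395905954049179948380924384889153350673267543724194230504055759551090101986765905162992290904677078855079593623254592664490705758809439545531930891113990265464003963626619080190337159282833780240772487777230666625819374732323181642353060927292330441993927914882857946124869097707201855598522886710472802405200518298320531153806750186830598316392669667050400790202743681079269631737154748641326795436523223630118127158679015362070206268322251696387361146057848920856506228063517592317309014335022118028022825294889911977715995757404389672425160557723058933976236623413681637344590870661808297231985145329294148775855830314916201751455659213758956460201225942611579459732369247444058795737329333623655066270209009172790507174392162341813993156018122283344757357260812754829616385867466719237648396202358988998368363988206013560963934721094075335574480809976024589064816843393816961157331567577261908344251553094817337707334280217317518086680845458761576015189735586102633359219279900217999636521595440023815597045457956269907873782021643244206255043396511486477825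
def h0 : T := (T.l (nat_lit 0))
def H : T := h0
theorem hlast : getB H 0 = 0 := by decide +kernel
end Vale.Agent.Lib.P038.Sat.I.M3_3
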